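import Vale.Agent.P181.PM.Root

set_option autoImplicit false

namespace Vale.Agent.P181.PM

open Vale.Agent.P181 Polynomial Finset
open scoped Pointwise

variable {A : Type*} [CommRing A] [Algebra ℂ A]

/-- The key step: one factor `φ` of the common `q`-th power may be replaced by `h`. -/
theorem key {s q : ℕ} (hs : 1 ≤ s) (hq : 1 ≤ q) (S : Submodule ℂ A)
    (F : MultilinearMap ℂ (fun _ : Fin s => A) ℂ) (hF : ∀ f ∈ S, F (fun _ => f ^ q) = 0)
    (φ h f2 : A) (hmem : ∀ j, j ≤ s → f2 * (h ^ j * φ ^ (s - j)) ∈ S) :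
    F (fun _ => f2 ^ q * (h * φ ^ (s * q - 1))) = 0 := by
  classical
  obtain ⟨p, hp1, _, hp3⟩ := exists_root q hq s
  obtain ⟨hc1, hc2⟩ := root_coeff hp3
  obtain ⟨G, hG⟩ : ∃ G : ℕ → A, G = fun m =>
    (p ^ q).coeff m • (f2 ^ q * (h ^ m * φ ^ (s * q - m))) := ⟨_, rfl⟩
  have hpow : ∀ t : ℂ, (f2 * ∑ j ∈ range (s + 1), p.coeff j • ((t • h) ^ j * φ ^ (s - j))) ^ q =
      ∑ m ∈ range (s * q + 1), t ^ m • G m := by
    intro t
    rw [mul_pow, hom_pow p hp1, Finset.mul_sum]
    apply Finset.sum_congr rfl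
    intro m _
    simp only [hG, Algebra.smul_def, map_pow]
    ring
  have hfS : ∀ t : ℂ, f2 * ∑ j ∈ range (s + 1), p.coeff j • ((t • h) ^ j * φ ^ (s - j)) ∈ S := by
    intro t
    rw [Finset.mul_sum]
    apply Submodule.sum_mem
    intro j hj
    have h1 : f2 * p.coeff j • ((t • h) ^ j * φ ^ (s - j)) =
        (p.coeff j * t ^ j) • (f2 * (h ^ j * φ ^ (s - j))) := by
      simp only [Algebra.smul_def, map_pow, map_mul]
      ring
    rw [h1]
    exact S.smul_mem _ (hmem j (by rw [mem_range] at hj; omega))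
  let R : Finset (Fin s → ℕ) := Fintype.piFinset (fun _ => range (s * q + 1))
  let Z : ℂ[X] := ∑ r ∈ R, C (F (fun i => G (r i))) * X ^ (∑ i, r i)
  have hZ : Z = 0 := by
    apply Polynomial.funext
    intro t
    rw [eval_zero, ← hF _ (hfS t), hpow t, MultilinearMap.map_sum_finset, eval_finsetSum]
    apply Finset.sum_congr rfl
    intro r _
    rw [MultilinearMap.map_smul_univ, Finset.prod_pow_eq_pow_sum, eval_mul, eval_C, eval_pow,
      eval_X, smul_eq_mul, mul_comm]
  have h2 := congrArg (fun z => z.coeff s) hZ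
  simp only [Z, finsetSum_coeff, coeff_C_mul, coeff_X_pow, coeff_zero, mul_ite, mul_one,
    mul_zero] at h2
  rw [← Finset.sum_filter] at h2
  have h3 : ∀ r ∈ R.filter (fun r => s = ∑ i, r i), r ≠ (fun _ => 1) →
      F (fun i => G (r i)) = 0 := by
    intro r hr hne
    rw [Finset.mem_filter] at hr
    have h4 : ∃ i, 2 ≤ r i := by
      by_contra hcon
      push Not at hcon
      apply hne
      funext i
      have h5 : ∀ j, r j ≤ 1 := fun j => by have := hcon j; omega
      by_contra hi
      have h6 : ∑ j, r j < ∑ _j : Fin s, 1 :=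
        Finset.sum_lt_sum (fun j _ => h5 j) ⟨i, Finset.mem_univ _, by have := h5 i; omega⟩
      rw [Finset.sum_const, Finset.card_univ, Fintype.card_fin, smul_eq_mul, mul_one] at h6
      omega
    obtain ⟨i, hi⟩ := h4
    have h5 : r i ≤ s := by
      rw [hr.2]
      exact Finset.single_le_sum (fun _ _ => Nat.zero_le _) (Finset.mem_univ i)
    apply MultilinearMap.map_coord_zero _ i
    rw [hG]
    simp only
    rw [hc2 _ hi h5, zero_smul]
  have h4 : (fun _ => 1 : Fin s → ℕ) ∈ R.filter (fun r => s = ∑ i, r i) := by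
    rw [Finset.mem_filter]
    refine ⟨Fintype.mem_piFinset.2 (fun _ => ?_), by simp⟩
    rw [mem_range]
    have : 1 ≤ s * q := Nat.mul_pos hs hq
    omega
  rw [Finset.sum_eq_single_of_mem _ h4 (fun r hr hne => h3 r hr hne)] at h2
  rw [hG] at h2
  simp only [hc1 hs, one_smul, pow_one] at h2
  exact h2

/-- Polarisation. -/
lemma polar {s : ℕ} (F : MultilinearMap ℂ (fun _ : Fin s => A) ℂ) (hsym : IsSymm F)
    (T : Submodule ℂ A) (hT : ∀ h ∈ T, F (fun _ => h) = 0) (h : Fin s → A) (hh : ∀ i, h i ∈ T) :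
    F h = 0 := by
  classical
  have main : ∀ n : ℕ, n ≤ s → ∀ (x : A), x ∈ T → ∀ h : Fin s → A, (∀ i, h i ∈ T) →
      F (fun i => if (i : ℕ) < s - n then x else h i) = 0 := by
    intro n
    induction n with
    | zero =>
      intro _ x hx h _
      rw [← hT x hx]
      congr 1
      funext i
      rw [if_pos (by have := i.2; omega)]
    | succ n ih =>
      intro hn x hx h hh
      have hj : s - (n + 1) < s := by omega
      let j : Fin s := ⟨s - (n + 1), hj⟩
      -- replace `x` by `x + t y` in the first `s - n` places, `y = h j`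
      have h1 := first_order F (fun i : Fin s => if (i : ℕ) < s - n then x else h i)
        (fun i : Fin s => if (i : ℕ) < s - n then h j else 0) (by
          intro t
          rw [← ih (by omega) (x + t • h j) (T.add_mem hx (T.smul_mem t (hh j))) h hh]
          congr 1
          funext i
          by_cases hi : (i : ℕ) < s - n
          · rw [if_pos hi, if_pos hi, if_pos hi]
          · rw [if_neg hi, if_neg hi, if_neg hi, smul_zero, add_zero])
      have h2 : ∀ i : Fin s, F (Function.update (fun i : Fin s => if (i : ℕ) < s - n then x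
          else h i) i (if (i : ℕ) < s - n then h j else 0)) =
          if (i : ℕ) < s - n then F (fun i => if (i : ℕ) < s - (n + 1) then x else h i) else 0 := by
        intro i
        by_cases hi : (i : ℕ) < s - n
        · rw [if_pos hi, if_pos hi]
          rw [← hsym (Equiv.swap i j)]
          congr 1
          funext l
          have hjv : (j : ℕ) = s - (n + 1) := rfl
          by_cases hl : l = j
          · subst hl
            rw [Equiv.swap_apply_right, Function.update_self, if_neg (by omega)]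
          · have h4 : (l : ℕ) ≠ s - (n + 1) := fun h5 => hl (Fin.ext (h5.trans hjv.symm))
            by_cases hli : l = i
            · subst hli
              rw [Equiv.swap_apply_left, Function.update_of_ne (fun h5 => hl h5.symm),
                if_pos (by omega), if_pos (by omega)]
            · rw [Equiv.swap_apply_of_ne_of_ne hli hl, Function.update_of_ne hli]
              by_cases hl2 : (l : ℕ) < s - n
              · rw [if_pos hl2, if_pos (by omega)]
              · rw [if_neg hl2, if_neg (by omega)]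
        · rw [if_neg hi, if_neg hi]
          exact MultilinearMap.map_update_zero _ _ _
      rw [Finset.sum_congr rfl (fun i _ => h2 i), ← Finset.sum_filter, Finset.sum_const,
        nsmul_eq_mul] at h1
      refine (mul_eq_zero.1 h1).resolve_left (Nat.cast_ne_zero.2 ?_)
      apply Finset.card_ne_zero_of_mem (a := j)
      rw [Finset.mem_filter]
      refine ⟨Finset.mem_univ _, ?_⟩
      simp only [j]
      omega
  have h1 := main s le_rfl 0 T.zero_mem h hh
  simpa using h1

/-- Claim A, `n` times. -/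
theorem claimA_iter (L : Submodule ℂ A) {s : ℕ} (κ : ℕ) :
    ∀ (n c : ℕ), (n = 0 ∨ s * κ ≤ c + κ) → ∀ (F : MultilinearMap ℂ (fun _ : Fin s => A) ℂ),
      (∀ ξ : Fin n → A, (∀ j, ξ j ∈ L) → ∀ P : Fin s → A, (∀ i, P i ∈ L ^ c) →
        F (fun i => (∏ j, ξ j) ^ κ * P i) = 0) →
      ∀ P : Fin s → A, (∀ i, P i ∈ L ^ (c + n * κ)) → F P = 0 := by
  intro n
  induction n with
  | zero =>
    intro c _ F hF P hP
    have h1 := hF (fun j => j.elim0) (fun j => j.elim0) P (by simpa using hP)
    simpa using h1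
  | succ n ih =>
    intro c hc F hF P hP
    have hc' : s * κ ≤ c + κ := by
      rcases hc with h | h
      · exact absurd h (Nat.succ_ne_zero n)
      · exact h
    refine claimA L F (fun _ => c + (n + 1) * κ) (fun _ => κ) ?_ ?_ P hP
    · intro j
      rw [Finset.sum_const, smul_eq_mul]
      have h1 : (Finset.Iic j).card ≤ s := by
        have := Finset.card_le_univ (Finset.Iic j)
        rwa [Fintype.card_fin] at this
      have h2 := Nat.mul_le_mul_right κ h1
      have h3 : c + (n + 1) * κ = c + κ + n * κ := by ring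
      have h4 := Nat.zero_le (n * κ)
      omega
    · intro ξ hξ P hP
      have h3 : c + (n + 1) * κ - κ = c + n * κ := by
        have : (n + 1) * κ = n * κ + κ := by ring
        omega
      rw [h3] at hP
      have h1 := ih c (Or.inr hc') (mulArg F (fun _ => ξ ^ κ)) (by
        intro ξ' hξ' P' hP'
        rw [mulArg_apply]
        have h2 := hF (Fin.cons ξ ξ') (by
          intro j
          refine Fin.cases ?_ (fun j => ?_) j
          · exact hξ
          · exact hξ' j) P' hP'
        rw [← h2]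
        congr 1
        funext i
        rw [Fin.prod_univ_succ, Fin.cons_zero]
        have h5 : ∀ j : Fin n, (Fin.cons ξ ξ' : Fin (n + 1) → A) j.succ = ξ' j := fun j =>
          Fin.cons_succ _ _ _
        rw [Finset.prod_congr rfl (fun j _ => h5 j), mul_pow]
        ring) P hP
      rwa [mulArg_apply] at h1

lemma zero_of_span {s : ℕ} (F : MultilinearMap ℂ (fun _ : Fin s => A) ℂ) (S : Set A)
    (h : ∀ w : Fin s → A, (∀ i, w i ∈ S) → F w = 0) :
    ∀ w : Fin s → A, (∀ i, w i ∈ Submodule.span ℂ S) → F w = 0 := by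
  classical
  have main : ∀ n : ℕ, n ≤ s → ∀ w : Fin s → A, (∀ i : Fin s, (i : ℕ) < n →
      w i ∈ Submodule.span ℂ S) → (∀ i : Fin s, n ≤ (i : ℕ) → w i ∈ S) → F w = 0 := by
    intro n
    induction n with
    | zero =>
      intro _ w _ h2
      exact h w (fun i => h2 i (Nat.zero_le _))
    | succ n ih =>
      intro hn w h1 h2
      let j : Fin s := ⟨n, by omega⟩
      have hjv : (j : ℕ) = n := rfl
      have h3 : ∀ x ∈ Submodule.span ℂ S, F (Function.update w j x) = 0 := by
        intro x hx
        induction hx using Submodule.span_induction with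
        | mem x hx =>
          apply ih (by omega)
          · intro i hi
            rw [Function.update_of_ne (fun h4 => by rw [h4] at hi; omega)]
            exact h1 i (by omega)
          · intro i hi
            by_cases hij : i = j
            · rw [hij, Function.update_self]
              exact hx
            · rw [Function.update_of_ne hij]
              apply h2 i
              have : (i : ℕ) ≠ n := fun h4 => hij (Fin.ext h4)
              omega
        | zero => exact F.map_update_zero _ _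
        | add x y _ _ hx hy => rw [F.map_update_add, hx, hy, add_zero]
        | smul c x _ hx => rw [F.map_update_smul, hx, smul_zero]
      have h4 := h3 (w j) (h1 j (by omega))
      rwa [Function.update_eq_self] at h4
  intro w hw
  exact main s le_rfl w (fun i _ => hw i) (fun i hi => absurd i.2 (by omega))

lemma prod_mem_pow' {n : ℕ} (L : Submodule ℂ A) (ξ : Fin n → A) (h : ∀ j, ξ j ∈ L) :
    (∏ j, ξ j) ∈ L ^ n := by
  induction n with
  | zero =>
    rw [Finset.univ_eq_empty, Finset.prod_empty, pow_zero]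
    exact Submodule.one_le.1 le_rfl
  | succ n ih =>
    rw [Fin.prod_univ_succ, pow_succ']
    exact Submodule.mul_mem_mul (h 0) (ih (fun j => ξ j.succ) (fun j => h j.succ))

lemma core_pm (L1 L2 : Submodule ℂ A) {s q d1 e1 d2 e2 : ℕ} (hs1 : 1 ≤ s) (hq : 1 ≤ q)
    (F : MultilinearMap ℂ (fun _ : Fin s => A) ℂ) (hs : IsSymm F)
    (c1 : d1 = 0 ∨ s * (s * q - 1) ≤ (d1 + e1 * q) + (s * q - 1))
    (c1' : e1 = 0 ∨ s * q ≤ d1 + q)
    (c2 : d2 = 0 ∨ s * (s * q - 1) ≤ (d2 + e2 * q) + (s * q - 1))
    (c2' : e2 = 0 ∨ s * q ≤ d2 + q)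
    (hF : ∀ f ∈ L1 ^ (s * d1 + e1) * L2 ^ (s * d2 + e2), F (fun _ => f ^ q) = 0) (P : Fin s → A)
    (hP : ∀ i, P i ∈ L1 ^ ((s * d1 + e1) * q) * L2 ^ ((s * d2 + e2) * q)) : F P = 0 := by
  have hsq : 1 ≤ s * q := Nat.mul_pos hs1 hq
  have hdeg : ∀ d e : ℕ, (s * d + e) * q = (d + e * q) + d * (s * q - 1) := by
    intro d e
    obtain ⟨m, hm⟩ : ∃ m, s * q = m + 1 := ⟨s * q - 1, by omega⟩
    have h1 : (s * d + e) * q = d * (s * q) + e * q := by ring
    rw [h1, hm, Nat.add_sub_cancel]
    ring
  -- the last step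
  have hlast : ∀ φ1 ∈ L1 ^ d1, ∀ g1 ∈ L1 ^ e1, ∀ φ2 ∈ L2 ^ d2, ∀ g2 ∈ L2 ^ e2,
      ∀ (x y : Fin s → A), (∀ i, x i ∈ L1 ^ d1) → (∀ i, y i ∈ L2 ^ d2) →
      F (fun i => (φ1 ^ (s * q - 1) * (g1 ^ q * x i)) * (φ2 ^ (s * q - 1) * (g2 ^ q * y i))) =
        0 := by
    intro φ1 hφ1 g1 hg1 φ2 hφ2 g2 hg2 x y hx hy
    have h1 := polar (mulArg F (fun _ => (g1 * g2) ^ q * (φ1 * φ2) ^ (s * q - 1)))
      (hs.mulArg_const _) (L1 ^ d1 * L2 ^ d2) (by
        intro h hh
        rw [mulArg_apply]
        have h2 := key hs1 hq _ F hF (φ1 * φ2) h (g1 * g2) (by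
          intro j hj
          have hφ : φ1 * φ2 ∈ L1 ^ d1 * L2 ^ d2 := Submodule.mul_mem_mul hφ1 hφ2
          have h3 : h ^ j * (φ1 * φ2) ^ (s - j) ∈ (L1 ^ d1 * L2 ^ d2) ^ s := by
            have h4 : (L1 ^ d1 * L2 ^ d2) ^ s =
                (L1 ^ d1 * L2 ^ d2) ^ j * (L1 ^ d1 * L2 ^ d2) ^ (s - j) := by
              rw [← pow_add]
              congr 1
              omega
            rw [h4]
            exact Submodule.mul_mem_mul (Submodule.pow_mem_pow _ hh _)
              (Submodule.pow_mem_pow _ hφ _)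
          have h5 : L1 ^ (s * d1 + e1) * L2 ^ (s * d2 + e2) =
              (L1 ^ e1 * L2 ^ e2) * (L1 ^ d1 * L2 ^ d2) ^ s := by
            rw [mul_pow, ← pow_mul, ← pow_mul, pow_add, pow_add, mul_comm s d1, mul_comm s d2]
            ring
          rw [h5]
          exact Submodule.mul_mem_mul (Submodule.mul_mem_mul hg1 hg2) h3)
        rw [← h2]
        congr 1
        funext i
        ring) (fun i => x i * y i) (fun i => Submodule.mul_mem_mul (hx i) (hy i))
    rw [mulArg_apply] at h1
    rw [← h1]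
    congr 1
    funext i
    rw [mul_pow, mul_pow]
    ring
  -- second type
  have hsecond : ∀ φ1 ∈ L1 ^ d1, ∀ g1 ∈ L1 ^ e1, ∀ (x v : Fin s → A), (∀ i, x i ∈ L1 ^ d1) →
      (∀ i, v i ∈ L2 ^ ((s * d2 + e2) * q)) →
      F (fun i => (φ1 ^ (s * q - 1) * (g1 ^ q * x i)) * v i) = 0 := by
    intro φ1 hφ1 g1 hg1 x v hx hv
    have h1 := claimA_iter L2 (s * q - 1) d2 (d2 + e2 * q) c2
      (mulArg F (fun i => φ1 ^ (s * q - 1) * (g1 ^ q * x i))) (by
        intro ξ hξ P hP
        have h2 := claimA_iter L2 q e2 d2 c2' (mulArg (mulArg F (fun i => φ1 ^ (s * q - 1) *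
          (g1 ^ q * x i))) (fun _ => (∏ j, ξ j) ^ (s * q - 1))) (by
            intro η hη P hP
            rw [mulArg_apply, mulArg_apply]
            exact hlast φ1 hφ1 g1 hg1 _ (prod_mem_pow' L2 ξ hξ) _ (prod_mem_pow' L2 η hη) x P
              hx hP) P hP
        rwa [mulArg_apply] at h2) v (by
          intro i
          rw [← hdeg]
          exact hv i)
    rwa [mulArg_apply] at h1
  -- first type
  have hfirst : ∀ (u v : Fin s → A), (∀ i, u i ∈ L1 ^ ((s * d1 + e1) * q)) →
      (∀ i, v i ∈ L2 ^ ((s * d2 + e2) * q)) → F (fun i => u i * v i) = 0 := by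
    intro u v hu hv
    have h1 := claimA_iter L1 (s * q - 1) d1 (d1 + e1 * q) c1 (mulArg F v) (by
        intro ξ hξ P hP
        have h2 := claimA_iter L1 q e1 d1 c1' (mulArg (mulArg F v)
          (fun _ => (∏ j, ξ j) ^ (s * q - 1))) (by
            intro η hη P hP
            rw [mulArg_apply, mulArg_apply]
            rw [← hsecond _ (prod_mem_pow' L1 ξ hξ) _ (prod_mem_pow' L1 η hη) P v hP hv]
            congr 1
            funext i
            ring) P hP
        rwa [mulArg_apply] at h2) u (by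
          intro i
          rw [← hdeg]
          exact hu i)
    rw [mulArg_apply] at h1
    rw [← h1]
    congr 1
    funext i
    ring
  apply zero_of_span F
    (((L1 ^ ((s * d1 + e1) * q) : Submodule ℂ A) : Set A) *
      ((L2 ^ ((s * d2 + e2) * q) : Submodule ℂ A) : Set A))
  · intro w hw
    choose u hu v hv huv using fun i => Set.mem_mul.1 (hw i)
    rw [← hfirst u v hu hv]
    congr 1
    funext i
    exact (huv i).symm
  · intro i
    rw [← Submodule.mul_eq_span_mul_set]
    exact hP i

/-- **The black box.** A symmetric form in `s` arguments which vanishes at all `q`-th powers of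
forms of bidegree `(k1, k2)` vanishes at all forms of bidegree `(k1 q, k2 q)`. -/
theorem pm_alg (L1 L2 : Submodule ℂ A) {s q k1 k2 : ℕ}
    (F : MultilinearMap ℂ (fun _ : Fin s => A) ℂ) (hs : IsSymm F) (hq : 1 ≤ q)
    (h1 : k1 = 0 ∨ s * (s - 1) * (q + 1) ≤ k1) (h2 : k2 = 0 ∨ s * (s - 1) * (q + 1) ≤ k2)
    (hF : ∀ f ∈ L1 ^ k1 * L2 ^ k2, F (fun _ => f ^ q) = 0) (P : Fin s → A)
    (hP : ∀ i, P i ∈ L1 ^ (k1 * q) * L2 ^ (k2 * q)) : F P = 0 := by
  rcases Nat.eq_zero_or_pos s with hs0 | hs1
  · subst hs0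
    have h3 := hF 0 (Submodule.zero_mem _)
    rw [← h3]
    congr 1
    funext i
    exact i.elim0
  · have hdec : ∀ k : ℕ, (k = 0 ∨ s * (s - 1) * (q + 1) ≤ k) → ∃ d e : ℕ, k = s * d + e ∧
        (d = 0 ∨ s * (s * q - 1) ≤ (d + e * q) + (s * q - 1)) ∧ (e = 0 ∨ s * q ≤ d + q) := by
      intro k hk
      rcases hk with hk | hk
      · exact ⟨0, 0, by rw [hk]; simp, Or.inl rfl, Or.inl rfl⟩
      · obtain ⟨t, rfl⟩ : ∃ t, s = t + 1 := ⟨s - 1, by omega⟩
        rw [Nat.add_sub_cancel] at hk
        obtain ⟨e, he⟩ : ∃ e, k = (t + 1) * (t * q) + e :=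
          ⟨k - (t + 1) * (t * q), by
            have : (t + 1) * t * (q + 1) = (t + 1) * (t * q) + (t + 1) * t := by ring
            omega⟩
        refine ⟨t * q, e, he, Or.inr ?_, Or.inr (by ring_nf; exact le_refl _)⟩
        have h3 : (t + 1) * t ≤ e := by
          have : (t + 1) * t * (q + 1) = (t + 1) * (t * q) + (t + 1) * t := by ring
          omega
        have h4 : (t + 1) * t * q ≤ e * q := Nat.mul_le_mul_right q h3
        have h5 : (t + 1) * ((t + 1) * q - 1) + (t + 1) = (t + 1) * ((t + 1) * q) := by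
          have h6 : 1 ≤ (t + 1) * q := Nat.mul_pos (by omega) hq
          obtain ⟨m, hm⟩ : ∃ m, (t + 1) * q = m + 1 := ⟨(t + 1) * q - 1, by omega⟩
          rw [hm, Nat.add_sub_cancel]
          ring
        have h7 : (t + 1) * ((t + 1) * q) = (t + 1) * t * q + (t + 1) * q := by ring
        have h8 : 1 ≤ (t + 1) * q := Nat.mul_pos (by omega) hq
        have h9 : (t + 1) * q = t * q + q := by ring
        omega
    obtain ⟨d1, e1, rfl, c1, c1'⟩ := hdec k1 h1
    obtain ⟨d2, e2, rfl, c2, c2'⟩ := hdec k2 h2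
    exact core_pm L1 L2 hs1 hq F hs c1 c1' c2 c2' hF P hP

end Vale.Agent.P181.PM
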