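import Vale.Agent.P181.Bdl.B1
import Mathlib.Algebra.Polynomial.Homogenize

set_option autoImplicit false

namespace Vale.Agent.P181.PM

open Vale.Agent.P181 Polynomial Finset

/-- Truncated `q`-th roots of `1 + X`. -/
lemma exists_root (q : ℕ) (hq : 1 ≤ q) (s : ℕ) :
    ∃ p : ℂ[X], p.natDegree ≤ s ∧ p.coeff 0 = 1 ∧ X ^ (s + 1) ∣ p ^ q - (1 + X) := by
  have hq0 : (q : ℂ) ≠ 0 := by
    have : q ≠ 0 := by omega
    exact_mod_cast this
  induction s with
  | zero =>
    refine ⟨1, by simp, by simp, ⟨-1, ?_⟩⟩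
    simp
  | succ s ih =>
    obtain ⟨p, hp1, hp2, r, hr⟩ := ih
    obtain ⟨w, hw⟩ := Polynomial.powAddExpansion p (C (-(r.coeff 0 / q)) * X ^ (s + 1)) q
    refine ⟨p + C (-(r.coeff 0 / q)) * X ^ (s + 1), ?_, ?_, ?_⟩
    · refine (natDegree_add_le _ _).trans (max_le (by omega) ?_)
      exact natDegree_C_mul_X_pow_le _ _
    · rw [coeff_add, hp2, coeff_C_mul_X_pow, if_neg (by omega), add_zero]
    · have h1 : X ∣ r - C (r.coeff 0) * p ^ (q - 1) := by
        rw [X_dvd_iff, coeff_sub, coeff_C_mul, coeff_zero_eq_eval_zero (p ^ (q - 1)), eval_pow,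
          ← coeff_zero_eq_eval_zero, hp2, one_pow, mul_one, sub_self]
      obtain ⟨r', hr'⟩ := h1
      have h2 : (q : ℂ[X]) * C (-(r.coeff 0 / q)) = - C (r.coeff 0) := by
        rw [← map_natCast (C : ℂ →+* ℂ[X]) q, ← C_mul, ← C_neg]
        congr 1
        field_simp
      refine ⟨r' + w * C (-(r.coeff 0 / q)) ^ 2 * X ^ s, ?_⟩
      have h3 : p ^ q = 1 + X + X ^ (s + 1) * r := by
        rw [← hr]
        ring
      have h4 : r = X * r' + C (r.coeff 0) * p ^ (q - 1) := by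
        rw [← hr']
        ring
      calc (p + C (-(r.coeff 0 / q)) * X ^ (s + 1)) ^ q - (1 + X)
          = p ^ q + (q : ℂ[X]) * p ^ (q - 1) * (C (-(r.coeff 0 / q)) * X ^ (s + 1)) +
              w * (C (-(r.coeff 0 / q)) * X ^ (s + 1)) ^ 2 - (1 + X) := by rw [hw]
        _ = X ^ (s + 1) * r + ((q : ℂ[X]) * C (-(r.coeff 0 / q))) * p ^ (q - 1) * X ^ (s + 1) +
              w * (C (-(r.coeff 0 / q)) * X ^ (s + 1)) ^ 2 := by
            rw [h3]
            ring
        _ = X ^ (s + 1) * (X * r' + C (r.coeff 0) * p ^ (q - 1)) +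
              (- C (r.coeff 0)) * p ^ (q - 1) * X ^ (s + 1) +
              w * (C (-(r.coeff 0 / q)) * X ^ (s + 1)) ^ 2 := by
            rw [h2, ← h4]
        _ = X ^ (s + 1 + 1) * (r' + w * C (-(r.coeff 0 / q)) ^ 2 * X ^ s) := by ring

lemma root_coeff {q : ℕ} {s : ℕ} {p : ℂ[X]} (hp : X ^ (s + 1) ∣ p ^ q - (1 + X)) :
    (1 ≤ s → (p ^ q).coeff 1 = 1) ∧ ∀ m, 2 ≤ m → m ≤ s → (p ^ q).coeff m = 0 := by
  obtain ⟨r, hr⟩ := hp
  have h1 : p ^ q = 1 + X + X ^ (s + 1) * r := by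
    rw [← hr]
    ring
  constructor
  · intro hs
    rw [h1, coeff_add, coeff_add, coeff_one, coeff_X_one, coeff_X_pow_mul', if_neg (by omega),
      if_neg (by omega)]
    simp
  · intro m hm hms
    rw [h1, coeff_add, coeff_add, coeff_one, coeff_X, coeff_X_pow_mul', if_neg (by omega),
      if_neg (by omega), if_neg (by omega)]
    simp

variable {A : Type*} [CommRing A] [Algebra ℂ A]

lemma aeval_hom (p : ℂ[X]) (n : ℕ) (φ y : A) :
    MvPolynomial.aeval ![y, φ] (p.homogenize n) =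
      ∑ j ∈ range (n + 1), p.coeff j • (y ^ j * φ ^ (n - j)) := by
  rw [homogenize, map_sum, Finset.Nat.sum_antidiagonal_eq_sum_range_succ_mk]
  apply Finset.sum_congr rfl
  intro j _
  rw [MvPolynomial.aeval_monomial, Algebra.smul_def]
  congr 1
  rw [Finsupp.prod_fintype _ _ (fun i => by simp), Fin.prod_univ_two]
  simp

lemma homogenize_pow' (p : ℂ[X]) {s : ℕ} (hp : p.natDegree ≤ s) (q : ℕ) :
    (p ^ q).homogenize (s * q) = (p.homogenize s) ^ q := by
  induction q with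
  | zero => simp
  | succ q ih =>
    rw [pow_succ, pow_succ, mul_add, mul_one, homogenize_mul _ _ ?_ hp, ih]
    refine natDegree_pow_le.trans ?_
    rw [mul_comm s q]
    exact Nat.mul_le_mul_left q hp

/-- The `q`-th power of a homogenised polynomial. -/
lemma hom_pow (p : ℂ[X]) {s : ℕ} (hp : p.natDegree ≤ s) (φ y : A) (q : ℕ) :
    (∑ j ∈ range (s + 1), p.coeff j • (y ^ j * φ ^ (s - j))) ^ q =
      ∑ m ∈ range (s * q + 1), (p ^ q).coeff m • (y ^ m * φ ^ (s * q - m)) := by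
  rw [← aeval_hom, ← aeval_hom, homogenize_pow' p hp, map_pow]

end Vale.Agent.P181.PM
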